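import Mathlib

/-! P295: stable coordinates of degree at most two. -/

namespace Vale.Agent.P295

open MvPolynomial

/-- `f` is a coordinate: some automorphism of the polynomial ring sends `f` to a variable -/
def IsCoordinate {σ : Type} (f : MvPolynomial σ ℂ) : Prop :=
  ∃ (φ : MvPolynomial σ ℂ ≃ₐ[ℂ] MvPolynomial σ ℂ) (i : σ), φ f = X i

/-- `f` is a stable coordinate: it becomes a coordinate after adding `m ≥ 1` new variables -/
def IsStableCoordinate {n : ℕ} (f : MvPolynomial (Fin n) ℂ) : Prop :=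
  ∃ m : ℕ, 1 ≤ m ∧ IsCoordinate (rename Sum.inl f : MvPolynomial (Fin n ⊕ Fin m) ℂ)

/-- chain rule -/
theorem chain {N M : Type} [Fintype N] (φ : MvPolynomial N ℂ →ₐ[ℂ] MvPolynomial M ℂ) (i : M)
    (F : MvPolynomial N ℂ) :
    pderiv i (φ F) = ∑ j, φ (pderiv j F) * pderiv i (φ (X j)) := by
  classical
  induction F using MvPolynomial.induction_on with
  | C a =>
    have h : φ (C a) = C a := φ.commutes a
    simp [h]
  | add p q hp hq => simp only [map_add, hp, hq, add_mul, Finset.sum_add_distrib]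
  | mul_X p k hp =>
    have h1 : ∀ j, φ (pderiv j (p * X k)) * pderiv i (φ (X j))
        = φ p * φ (pderiv j (X k)) * pderiv i (φ (X j))
          + φ (X k) * (φ (pderiv j p) * pderiv i (φ (X j))) := by
      intro j
      rw [Derivation.leibniz]
      simp only [smul_eq_mul, map_add, map_mul]
      ring
    have h2 : ∑ j, φ p * φ (pderiv j (X k)) * pderiv i (φ (X j)) = φ p * pderiv i (φ (X k)) := by
      rw [Finset.sum_eq_single k]
      · rw [pderiv_X_self, map_one, mul_one]
      · intro j _ hj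
        rw [pderiv_X_of_ne (Ne.symm hj), map_zero]; ring
      · intro h; exact absurd (Finset.mem_univ k) h
    rw [Finset.sum_congr rfl (fun j _ => h1 j), Finset.sum_add_distrib, ← Finset.mul_sum, ← hp, h2,
      map_mul, Derivation.leibniz]
    simp only [smul_eq_mul]

/-- the gradient of a coordinate vanishes nowhere -/
theorem grad_ne {N : Type} [Fintype N] (F : MvPolynomial N ℂ) (hF : IsCoordinate F) (a : N → ℂ) :
    ∃ j, aeval a (pderiv j F) ≠ (0 : ℂ) := by
  obtain ⟨φ, i, hφ⟩ := hF
  by_contra hcon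
  push Not at hcon
  let b : N → ℂ := fun j => aeval a (φ.symm (X j))
  have h : (aeval b : MvPolynomial N ℂ →ₐ[ℂ] ℂ) = (aeval a).comp φ.symm.toAlgHom := by
    apply MvPolynomial.algHom_ext
    intro j
    rw [aeval_X]
    rfl
  have hb : ∀ Q, aeval b (φ Q) = (aeval a Q : ℂ) := by
    intro Q
    rw [h]
    change aeval a (φ.symm (φ Q)) = _
    rw [AlgEquiv.symm_apply_apply]
  have hc := chain φ.toAlgHom i F
  have hc' : pderiv i (φ F) = ∑ j, φ (pderiv j F) * pderiv i (φ (X j)) := hc
  rw [hφ, pderiv_X_self] at hc'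
  have h1 := congrArg (aeval b : MvPolynomial N ℂ →ₐ[ℂ] ℂ) hc'
  rw [map_one, map_sum] at h1
  have h2 : ∀ j ∈ (Finset.univ : Finset N),
      aeval b (φ (pderiv j F) * pderiv i (φ (X j))) = (0 : ℂ) := by
    intro j _
    rw [map_mul, hb, hcon j, zero_mul]
  rw [Finset.sum_eq_zero h2] at h1
  exact one_ne_zero h1

/-- the gradient of a stable coordinate vanishes nowhere -/
theorem stable_grad_ne {n : ℕ} (f : MvPolynomial (Fin n) ℂ) (hf : IsStableCoordinate f)
    (a : Fin n → ℂ) : ∃ j, eval a (pderiv j f) ≠ 0 := by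
  classical
  obtain ⟨m, _, hm⟩ := hf
  obtain ⟨j, hj⟩ := grad_ne _ hm (Sum.elim a 0)
  rcases j with j | j
  · refine ⟨j, ?_⟩
    rw [pderiv_rename Sum.inl_injective, aeval_rename] at hj
    intro h
    apply hj
    have : (Sum.elim a 0 : Fin n ⊕ Fin m → ℂ) ∘ Sum.inl = a := by ext i; rfl
    rw [this]
    exact h
  · exfalso
    apply hj
    rw [pderiv_eq_zero_of_notMem_vars, map_zero]
    intro h
    have := vars_rename Sum.inl f h
    simp at this

/-- the partial derivatives of a polynomial of degree at most two are affine functions -/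
theorem affine_pderiv {n : ℕ} (f : MvPolynomial (Fin n) ℂ) (hf : f.totalDegree ≤ 2) (j : Fin n) :
    ∃ (l : (Fin n → ℂ) →ₗ[ℂ] ℂ) (c : ℂ), ∀ a, eval a (pderiv j f) = l a + c := by
  classical
  have h1 : ∀ m ∈ (pderiv j f).support, ∃ (l : (Fin n → ℂ) →ₗ[ℂ] ℂ) (c : ℂ),
      ∀ a : Fin n → ℂ, (∏ i, a i ^ m i) = l a + c := by
    intro m hm
    have h0 : coeff m (pderiv j f) ≠ 0 := mem_support_iff.1 hm
    rw [coeff_pderiv] at h0
    have h2 : m + Finsupp.single j 1 ∈ f.support := mem_support_iff.2 (left_ne_zero_of_mul h0)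
    have h3 := le_totalDegree h2
    rw [Finsupp.sum_fintype _ _ (fun _ => rfl)] at h3
    have h4 : ∑ i, m i ≤ 1 := by
      have e1 : ∑ i, (m + Finsupp.single j 1 : Fin n →₀ ℕ) i = ∑ i, m i + 1 := by
        simp only [Finsupp.add_apply, Finset.sum_add_distrib]
        congr 1
        rw [Finset.sum_eq_single j]
        · simp
        · intro b _ hb; simp [Finsupp.single_apply, Ne.symm hb]
        · intro h; exact absurd (Finset.mem_univ j) h
      omega
    by_cases h5 : ∀ i, m i = 0
    · exact ⟨0, 1, fun a => by simp [h5]⟩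
    · push Not at h5
      obtain ⟨i, hi⟩ := h5
      have h7 : m i + ∑ k ∈ Finset.univ.erase i, m k = ∑ k, m k :=
        Finset.add_sum_erase _ _ (Finset.mem_univ i)
      have h8 : m i = 1 := by omega
      have h9 : ∑ k ∈ Finset.univ.erase i, m k = 0 := by omega
      have h10 : ∀ k, k ≠ i → m k = 0 := fun k hk =>
        (Finset.sum_eq_zero_iff.1 h9) k (Finset.mem_erase.2 ⟨hk, Finset.mem_univ k⟩)
      refine ⟨LinearMap.proj i, 0, fun a => ?_⟩
      rw [Finset.prod_eq_single i]
      · simp [h8]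
      · intro k _ hk; simp [h10 k hk]
      · intro h; exact absurd (Finset.mem_univ i) h
  choose! l c h using h1
  refine ⟨∑ m ∈ (pderiv j f).support, coeff m (pderiv j f) • l m,
    ∑ m ∈ (pderiv j f).support, coeff m (pderiv j f) * c m, fun a => ?_⟩
  rw [eval_eq', LinearMap.sum_apply, ← Finset.sum_add_distrib]
  apply Finset.sum_congr rfl
  intro m hm
  rw [h m hm a, LinearMap.smul_apply, smul_eq_mul]
  ring

/-- a constant vector field `v` with `D_v f` a nonzero constant -/
theorem exists_dir {n : ℕ} (f : MvPolynomial (Fin n) ℂ) (hf : f.totalDegree ≤ 2)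
    (hg : ∀ a : Fin n → ℂ, ∃ j, eval a (pderiv j f) ≠ 0) :
    ∃ (v : Fin n → ℂ) (g : ℂ), g ≠ 0 ∧ ∑ j, C (v j) * pderiv j f = C g := by
  classical
  choose l c hlc using affine_pderiv f hf
  let S : (Fin n → ℂ) →ₗ[ℂ] (Fin n → ℂ) := LinearMap.pi l
  have hc : c ∉ LinearMap.range S := by
    rintro ⟨a, ha⟩
    obtain ⟨j, hj⟩ := hg (-a)
    apply hj
    rw [hlc]
    have : l j a = c j := congrFun ha j
    rw [map_neg, this]; ring
  obtain ⟨g, hg1, hg2⟩ := Submodule.exists_le_ker_of_notMem hc
  refine ⟨fun j => g (Pi.single j 1), g c, hg1, ?_⟩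
  apply MvPolynomial.funext
  intro a
  rw [map_sum, eval_C]
  have h1 : ∀ w : Fin n → ℂ, g w = ∑ j, w j * g (Pi.single j 1) := by
    intro w
    conv_lhs => rw [pi_eq_sum_univ' w]
    rw [map_sum]
    apply Finset.sum_congr rfl
    intro j _
    rw [map_smul, smul_eq_mul]
  have h2 : g (S a) = 0 := hg2 ⟨a, rfl⟩
  have h3 : g (S a + c) = g c := by rw [map_add, h2, zero_add]
  rw [← h3, h1 (S a + c)]
  apply Finset.sum_congr rfl
  intro j _
  rw [map_mul, eval_C, hlc]
  change _ = (l j a + c j) * _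
  ring

/-- a polynomial with zero `i`-th derivative does not involve `X i` -/
theorem notMem_vars_of_pderiv {σ : Type} (h : MvPolynomial σ ℂ) (i : σ) (hi : pderiv i h = 0) :
    i ∉ h.vars := by
  classical
  rw [mem_vars_iff_mem_support]
  rintro ⟨d, hd, hid⟩
  have hne : d i ≠ 0 := Finsupp.mem_support_iff.1 hid
  have e : d - Finsupp.single i 1 + Finsupp.single i 1 = d := by
    ext k
    simp only [Finsupp.add_apply, Finsupp.tsub_apply, Finsupp.single_apply]
    by_cases hk : i = k
    · subst hk; simp; omega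
    · simp [hk]
  have h1 := coeff_pderiv (i := i) h (d - Finsupp.single i 1)
  rw [hi, coeff_zero, e] at h1
  have h2 : coeff d h ≠ 0 := mem_support_iff.1 hd
  have h3 : (((d - Finsupp.single i 1 : σ →₀ ℕ) i : ℕ) : ℂ) + 1 ≠ 0 := by
    exact Nat.cast_add_one_ne_zero _
  exact (mul_ne_zero h2 h3) h1.symm

/-- a polynomial with a constant vector field `v` such that `D_v f = g ≠ 0` is a coordinate -/
theorem coordinate_of_dir {n : ℕ} (f : MvPolynomial (Fin n) ℂ) (v : Fin n → ℂ) (g : ℂ)
    (hg : g ≠ 0) (hv : ∑ j, C (v j) * pderiv j f = C g) : IsCoordinate f := by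
  classical
  obtain ⟨i, hi⟩ : ∃ i, v i ≠ 0 := by
    by_contra hcon
    push Not at hcon
    simp only [hcon, map_zero, zero_mul, Finset.sum_const_zero] at hv
    exact hg (C_injective _ _ (by rw [← hv, map_zero]))
  let u : Fin n → ℂ := fun j => if j = i then 0 else v j / v i
  have hui : u i = 0 := by simp [u]
  let L : MvPolynomial (Fin n) ℂ →ₐ[ℂ] MvPolynomial (Fin n) ℂ := aeval fun j => X j + C (u j) * X i
  let L' : MvPolynomial (Fin n) ℂ →ₐ[ℂ] MvPolynomial (Fin n) ℂ := aeval fun j => X j - C (u j) * X i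
  have hLC : ∀ a, L (C a) = C a := fun a => L.commutes a
  have hLC' : ∀ a, L' (C a) = C a := fun a => L'.commutes a
  have hLX : ∀ j, L (X j) = X j + C (u j) * X i := fun j => aeval_X _ j
  have hLX' : ∀ j, L' (X j) = X j - C (u j) * X i := fun j => aeval_X _ j
  let EL : MvPolynomial (Fin n) ℂ ≃ₐ[ℂ] MvPolynomial (Fin n) ℂ := AlgEquiv.ofAlgHom L L'
    (by
      apply MvPolynomial.algHom_ext; intro j
      change L (L' (X j)) = X j
      rw [hLX', map_sub, map_mul, hLC, hLX, hLX, hui, C_0]; ring)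
    (by
      apply MvPolynomial.algHom_ext; intro j
      change L' (L (X j)) = X j
      rw [hLX, map_add, map_mul, hLC', hLX', hLX', hui, C_0]; ring)
  let γ : ℂ := g / v i
  have hγ : γ ≠ 0 := div_ne_zero hg hi
  have hd : ∀ j, pderiv i (L (X j)) = C (v j / v i) := by
    intro j
    rw [hLX, map_add, Derivation.leibniz, pderiv_C, pderiv_X_self, smul_zero, add_zero,
      smul_eq_mul, mul_one]
    by_cases hj : j = i
    · subst hj
      rw [pderiv_X_self, hui, C_0, add_zero, div_self hi, C_1]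
    · rw [pderiv_X_of_ne hj, zero_add]
      simp [u, hj]
  have hLf : pderiv i (L f) = C γ := by
    rw [chain L i f]
    have h1 : ∀ j ∈ (Finset.univ : Finset (Fin n)), L (pderiv j f) * pderiv i (L (X j))
        = C (v i)⁻¹ * L (C (v j) * pderiv j f) := by
      intro j _
      rw [hd, map_mul, hLC, div_eq_inv_mul, C_mul]; ring
    rw [Finset.sum_congr rfl h1, ← Finset.mul_sum, ← map_sum, hv, hLC, ← C_mul]
    congr 1
    simp only [γ]; field_simp
  let h : MvPolynomial (Fin n) ℂ := L f - C γ * X i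
  have hh : pderiv i h = 0 := by
    simp only [h]
    rw [map_sub, hLf, Derivation.leibniz, pderiv_C, pderiv_X_self]
    simp
  have hvars := notMem_vars_of_pderiv h i hh
  let T : MvPolynomial (Fin n) ℂ →ₐ[ℂ] MvPolynomial (Fin n) ℂ :=
    aeval fun j => if j = i then C γ⁻¹ * (X i - h) else X j
  let T' : MvPolynomial (Fin n) ℂ →ₐ[ℂ] MvPolynomial (Fin n) ℂ :=
    aeval fun j => if j = i then C γ * X i + h else X j
  have hTC : ∀ a, T (C a) = C a := fun a => T.commutes a
  have hTC' : ∀ a, T' (C a) = C a := fun a => T'.commutes a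
  have hTX : T (X i) = C γ⁻¹ * (X i - h) := by simp [T]
  have hTX' : T' (X i) = C γ * X i + h := by simp [T']
  have hTj : ∀ j, j ≠ i → T (X j) = X j := fun j hj => by simp [T, hj]
  have hTj' : ∀ j, j ≠ i → T' (X j) = X j := fun j hj => by simp [T', hj]
  have hfix : ∀ R : MvPolynomial (Fin n) ℂ →ₐ[ℂ] MvPolynomial (Fin n) ℂ,
      (∀ j, j ≠ i → R (X j) = X j) → R h = h := by
    intro R hR
    have := hom_congr_vars (f₁ := R.toRingHom) (f₂ := RingHom.id _) (p₁ := h) (p₂ := h)
      (by ext a; simpa using R.commutes a)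
      (fun j hj _ => hR j (fun e => hvars (e ▸ hj))) rfl
    exact this
  have hCC : C γ⁻¹ * C γ = (1 : MvPolynomial (Fin n) ℂ) := by
    rw [← C_mul, inv_mul_cancel₀ hγ, C_1]
  let ET : MvPolynomial (Fin n) ℂ ≃ₐ[ℂ] MvPolynomial (Fin n) ℂ := AlgEquiv.ofAlgHom T T'
    (by
      apply MvPolynomial.algHom_ext; intro j
      change T (T' (X j)) = X j
      by_cases hj : j = i
      · subst hj
        rw [hTX', map_add, map_mul, hTC, hTX, hfix T hTj]
        linear_combination (X j - h) * hCC
      · rw [hTj' j hj, hTj j hj])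
    (by
      apply MvPolynomial.algHom_ext; intro j
      change T' (T (X j)) = X j
      by_cases hj : j = i
      · subst hj
        rw [hTX, map_mul, map_sub, hTC', hTX', hfix T' hTj']
        linear_combination X j * hCC
      · rw [hTj j hj, hTj' j hj])
  refine ⟨EL.trans ET, i, ?_⟩
  change T (L f) = X i
  have e : L f = C γ * X i + h := by simp only [h]; ring
  rw [e, map_add, map_mul, hTC, hTX, hfix T hTj]
  linear_combination (X i - h) * hCC

end Vale.Agent.P295
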