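import Vale.Agent.Lib.P295.Quad

/-! P295: stable coordinates which are weighted homogeneous are coordinates. -/

namespace Vale.Agent.P295

open MvPolynomial

theorem coord_of_pderiv {n : ℕ} {f : MvPolynomial (Fin n) ℂ} {j : Fin n} {c : ℂ} (hc : c ≠ 0)
    (h : pderiv j f = C c) : IsCoordinate f := by
  classical
  refine coordinate_of_dir f (Pi.single j 1) c hc ?_
  rw [Finset.sum_eq_single j]
  · rw [Pi.single_eq_same, C_1, one_mul, h]
  · intro i _ hi
    rw [Pi.single_eq_of_ne hi, C_0, zero_mul]
  · intro h; exact absurd (Finset.mem_univ j) h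

theorem eval_zero_of_pos {n : ℕ} {w : Fin n → ℕ} {e : ℕ} (he : e ≠ 0)
    {h : MvPolynomial (Fin n) ℂ} (hh : IsWeightedHomogeneous w h e) (p : Fin n → ℂ) :
    eval (fun i => if w i = 0 then p i else 0) h = 0 := by
  rw [eval_eq]
  apply Finset.sum_eq_zero
  intro m hm
  have h1 : Finsupp.weight w m = e := hh (mem_support_iff.1 hm)
  rw [Finsupp.weight_apply, Finsupp.sum] at h1
  have : ∃ i ∈ m.support, m i • w i ≠ 0 := by
    by_contra hcon
    push Not at hcon
    rw [Finset.sum_eq_zero hcon] at h1
    exact he h1.symm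
  obtain ⟨i, hi, hi2⟩ := this
  rw [smul_eq_mul] at hi2
  have hw : w i ≠ 0 := right_ne_zero_of_mul hi2
  have hmi : m i ≠ 0 := left_ne_zero_of_mul hi2
  rw [Finset.prod_eq_zero hi (by simp [hw, hmi]), mul_zero]

theorem eval_eq_of_zero {n : ℕ} {w : Fin n → ℕ}
    {h : MvPolynomial (Fin n) ℂ} (hh : IsWeightedHomogeneous w h 0) (p : Fin n → ℂ) :
    eval (fun i => if w i = 0 then p i else 0) h = eval p h := by
  rw [eval_eq, eval_eq]
  apply Finset.sum_congr rfl
  intro m hm
  congr 1
  apply Finset.prod_congr rfl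
  intro i hi
  have h1 : Finsupp.weight w m = 0 := hh (mem_support_iff.1 hm)
  rw [Finsupp.weight_apply, Finsupp.sum] at h1
  have h2 := (Finset.sum_eq_zero_iff.1 h1) i hi
  rw [smul_eq_mul] at h2
  have hmi : m i ≠ 0 := Finsupp.mem_support_iff.1 hi
  have hw : w i = 0 := (mul_eq_zero.1 h2).resolve_left hmi
  simp [hw]

theorem pderiv_zero_of_lt {n : ℕ} {w : Fin n → ℕ} {d : ℕ} {j : Fin n} (hj : d < w j)
    {h : MvPolynomial (Fin n) ℂ} (hh : IsWeightedHomogeneous w h d) : pderiv j h = 0 := by
  apply pderiv_eq_zero_of_notMem_vars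
  intro hmem
  rw [mem_vars_iff_mem_support] at hmem
  obtain ⟨m, hm, hmj⟩ := hmem
  have h1 : Finsupp.weight w m = d := hh (mem_support_iff.1 hm)
  rw [Finsupp.weight_apply, Finsupp.sum] at h1
  have h2 : m j • w j ≤ ∑ a ∈ m.support, m a • w a :=
    Finset.single_le_sum (f := fun a => m a • w a) (fun _ _ => Nat.zero_le _) hmj
  have hmj' : m j ≠ 0 := Finsupp.mem_support_iff.1 hmj
  have h3 : w j ≤ m j • w j := by
    rw [smul_eq_mul]
    exact Nat.le_mul_of_pos_left _ (Nat.pos_of_ne_zero hmj')
  omega

/-- at every point some derivative in a direction of weight `d` does not vanish -/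
theorem key {n : ℕ} {w : Fin n → ℕ} {d : ℕ} {f : MvPolynomial (Fin n) ℂ} {a : ℂ}
    (hf : IsStableCoordinate f) (hw : IsWeightedHomogeneous w (f - C a) d) (p : Fin n → ℂ) :
    ∃ j, w j = d ∧ eval p (pderiv j f) ≠ 0 := by
  obtain ⟨j, hj⟩ := stable_grad_ne f hf (fun i => if w i = 0 then p i else 0)
  have hpd : pderiv j f = pderiv j (f - C a) := by
    rw [map_sub, pderiv_C, sub_zero]
  rcases lt_trichotomy (w j) d with h | h | h
  · exfalso
    apply hj
    rw [hpd]
    exact eval_zero_of_pos (w := w) (e := d - w j) (by omega)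
      (IsWeightedHomogeneous.pderiv hw (by omega)) p
  · refine ⟨j, h, ?_⟩
    have h0 : IsWeightedHomogeneous w (pderiv j (f - C a)) 0 :=
      IsWeightedHomogeneous.pderiv hw (by omega)
    rw [hpd] at hj ⊢
    rwa [eval_eq_of_zero h0 p] at hj
  · exfalso
    apply hj
    rw [hpd, pderiv_zero_of_lt h hw, map_zero]

theorem const_of_pos {n : ℕ} {w : Fin n → ℕ} (hpos : ∀ i, 0 < w i)
    {h : MvPolynomial (Fin n) ℂ} (hh : IsWeightedHomogeneous w h 0) : h = C (coeff 0 h) := by
  ext m
  rw [coeff_C]
  split_ifs with hm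
  · rw [hm]
  · by_contra hne
    have h1 : Finsupp.weight w m = 0 := hh hne
    rw [Finsupp.weight_apply, Finsupp.sum] at h1
    apply hm
    symm
    ext i
    by_contra hi
    have hi' : m i ≠ 0 := hi
    have h2 := (Finset.sum_eq_zero_iff.1 h1) i (Finsupp.mem_support_iff.2 hi')
    rw [smul_eq_mul] at h2
    rcases mul_eq_zero.1 h2 with h3 | h3
    · exact hi' h3
    · exact absurd h3 (hpos i).ne'

/-- a polynomial without zeros is a constant -/
theorem const_of_no_zero {n : ℕ} {h : MvPolynomial (Fin n) ℂ} (h0 : ∀ p, eval p h ≠ 0) :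
    ∃ c : ℂ, c ≠ 0 ∧ h = C c := by
  have h1 := vanishingIdeal_zeroLocus_eq_radical (k := ℂ) (K := ℂ) (Ideal.span {h})
  have h2 : zeroLocus ℂ (Ideal.span {h}) = ∅ := by
    rw [zeroLocus_span, Set.eq_empty_iff_forall_notMem]
    intro p hp
    apply h0 p
    have := hp h rfl
    simpa [coe_aeval_eq_eval] using this
  rw [h2, vanishingIdeal_empty] at h1
  have h3 : Ideal.span {h} = ⊤ := Ideal.radical_eq_top.1 h1.symm
  rw [Ideal.span_singleton_eq_top, isUnit_iff_eq_C_of_isReduced] at h3
  obtain ⟨c, hc, hc2⟩ := h3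
  exact ⟨c, hc.ne_zero, hc2⟩


theorem main_pos {n : ℕ} {f : MvPolynomial (Fin n) ℂ} (hf : IsStableCoordinate f) {w : Fin n → ℕ}
    {d : ℕ} {a : ℂ} (hw : IsWeightedHomogeneous w (f - C a) d)
    (hpos : ∀ i, 0 < w i) : IsCoordinate f := by
  obtain ⟨j, hj, hj2⟩ := key hf hw 0
  have hpd : pderiv j f = pderiv j (f - C a) := by
    rw [map_sub, pderiv_C, sub_zero]
  have h0 : IsWeightedHomogeneous w (pderiv j f) 0 := by
    rw [hpd]
    exact IsWeightedHomogeneous.pderiv hw (by omega)
  have h1 := const_of_pos hpos h0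
  rw [h1, eval_C] at hj2
  exact coord_of_pderiv hj2 h1

/-- the projection to the variables of weight zero -/
noncomputable def proj {n : ℕ} (w : Fin n → ℕ) :
    MvPolynomial (Fin n) ℂ →ₐ[ℂ] MvPolynomial (Fin n) ℂ :=
  aeval fun i => if w i = 0 then X i else 0

theorem proj_eq {n : ℕ} {w : Fin n → ℕ} {h : MvPolynomial (Fin n) ℂ}
    (hh : IsWeightedHomogeneous w h 0) : proj w h = h := by
  have h1 : proj w h = aeval X h := by
    apply MvPolynomial.eval₂Hom_congr' rfl _ rfl
    intro i hi _
    rw [mem_vars_iff_mem_support] at hi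
    obtain ⟨m, hm, hi⟩ := hi
    have h1 : Finsupp.weight w m = 0 := hh (mem_support_iff.1 hm)
    rw [Finsupp.weight_apply, Finsupp.sum] at h1
    have h2 := (Finset.sum_eq_zero_iff.1 h1) i hi
    rw [smul_eq_mul] at h2
    have hmi : m i ≠ 0 := Finsupp.mem_support_iff.1 hi
    have hw : w i = 0 := (mul_eq_zero.1 h2).resolve_left hmi
    simp [hw]
  rw [h1]
  simp

/-- two polynomials without common zero generate the unit ideal -/
theorem bezout {n : ℕ} {p q : MvPolynomial (Fin n) ℂ}
    (h0 : ∀ x, eval x p ≠ 0 ∨ eval x q ≠ 0) : ∃ r s, r * p + s * q = 1 := by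
  have h1 := vanishingIdeal_zeroLocus_eq_radical (k := ℂ) (K := ℂ) (Ideal.span {p, q})
  have h2 : zeroLocus ℂ (Ideal.span {p, q}) = ∅ := by
    rw [zeroLocus_span, Set.eq_empty_iff_forall_notMem]
    intro x hx
    have hp := hx p (by simp)
    have hq := hx q (by simp)
    rcases h0 x with h | h
    · exact h (by simpa [coe_aeval_eq_eval] using hp)
    · exact h (by simpa [coe_aeval_eq_eval] using hq)
  rw [h2, vanishingIdeal_empty] at h1
  have h3 : Ideal.span {p, q} = ⊤ := Ideal.radical_eq_top.1 h1.symm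
  have h4 : (1 : MvPolynomial (Fin n) ℂ) ∈ Ideal.span {p, q} := by rw [h3]; trivial
  exact Ideal.mem_span_pair.1 h4

/-- replace `X j` by `p` and `X k` by `q` -/
noncomputable def two {n : ℕ} (j k : Fin n) (p q : MvPolynomial (Fin n) ℂ) :
    MvPolynomial (Fin n) ℂ →ₐ[ℂ] MvPolynomial (Fin n) ℂ :=
  aeval fun i => if i = j then p else if i = k then q else X i

theorem two_proj {n : ℕ} {w : Fin n → ℕ} {j k : Fin n} (hj : w j ≠ 0) (hk : w k ≠ 0)
    (p q g : MvPolynomial (Fin n) ℂ) : two j k p q (proj w g) = proj w g := by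
  have h : (two j k p q).comp (proj w) = proj w := by
    apply MvPolynomial.algHom_ext
    intro i
    by_cases hi : w i = 0
    · have h1 : i ≠ j := fun h => hj (h ▸ hi)
      have h2 : i ≠ k := fun h => hk (h ▸ hi)
      simp [proj, two, hi, h1, h2]
    · simp [proj, two, hi]
  exact DFunLike.congr_fun h g

theorem two_fix {n : ℕ} {j k : Fin n} (p q : MvPolynomial (Fin n) ℂ)
    {g : MvPolynomial (Fin n) ℂ} (hj : j ∉ g.vars) (hk : k ∉ g.vars) : two j k p q g = g := by
  have h1 : two j k p q g = aeval X g := by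
    apply MvPolynomial.eval₂Hom_congr' rfl _ rfl
    intro i hi _
    have h1 : i ≠ j := fun h => hj (h ▸ hi)
    have h2 : i ≠ k := fun h => hk (h ▸ hi)
    simp [h1, h2]
  rw [h1]
  simp

theorem coord_comp {n : ℕ} {f : MvPolynomial (Fin n) ℂ}
    (e : MvPolynomial (Fin n) ℂ ≃ₐ[ℂ] MvPolynomial (Fin n) ℂ) (h : IsCoordinate (e f)) :
    IsCoordinate f := by
  obtain ⟨φ, i, hi⟩ := h
  exact ⟨e.trans φ, i, hi⟩

theorem main_two {n : ℕ} {f : MvPolynomial (Fin n) ℂ} (hf : IsStableCoordinate f) {w : Fin n → ℕ}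
    {d : ℕ} {a : ℂ} (hd : 0 < d) (hw : IsWeightedHomogeneous w (f - C a) d) {j k : Fin n}
    (hjk : ∀ i, w i = d → i = j ∨ i = k) : IsCoordinate f := by
  by_cases hj : w j = d ∧ w k = d ∧ j ≠ k
  · obtain ⟨hj, hk, hne⟩ := hj
    have hj0 : w j ≠ 0 := by omega
    have hk0 : w k ≠ 0 := by omega
    have hpd : ∀ i, pderiv i f = pderiv i (f - C a) := fun i => by
      rw [map_sub, pderiv_C, sub_zero]
    have hwj : IsWeightedHomogeneous w (pderiv j f) 0 := by
      rw [hpd]; exact IsWeightedHomogeneous.pderiv hw (by omega)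
    have hwk : IsWeightedHomogeneous w (pderiv k f) 0 := by
      rw [hpd]; exact IsWeightedHomogeneous.pderiv hw (by omega)
    obtain ⟨r, s, hrs⟩ := bezout (p := pderiv j f) (q := pderiv k f) (by
      intro x
      obtain ⟨i, hi, hi2⟩ := key hf hw x
      rcases hjk i hi with rfl | rfl
      · exact Or.inl hi2
      · exact Or.inr hi2)
    have hA := proj_eq hwj
    have hB := proj_eq hwk
    have hrs' : proj w r * pderiv j f + proj w s * pderiv k f = 1 := by
      have := congrArg (proj w) hrs
      rwa [map_add, map_mul, map_mul, hA, hB, map_one] at this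
    set A := pderiv j f with hAdef
    set B := pderiv k f with hBdef
    set R := proj w r with hR
    set S := proj w s with hS
    have fixA : ∀ p q, two j k p q A = A := fun p q => by
      rw [← hA]; exact two_proj hj0 hk0 p q A
    have fixB : ∀ p q, two j k p q B = B := fun p q => by
      rw [← hB]; exact two_proj hj0 hk0 p q B
    have fixR : ∀ p q, two j k p q R = R := fun p q => two_proj hj0 hk0 p q r
    have fixS : ∀ p q, two j k p q S = S := fun p q => two_proj hj0 hk0 p q s
    have tj : ∀ p q, two j k p q (X j) = p := fun p q => by simp [two]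
    have tk : ∀ p q, two j k p q (X k) = q := fun p q => by simp [two, Ne.symm hne]
    have ti : ∀ p q i, i ≠ j → i ≠ k → two j k p q (X i) = X i := fun p q i h1 h2 => by
      simp [two, h1, h2]
    let e : MvPolynomial (Fin n) ℂ ≃ₐ[ℂ] MvPolynomial (Fin n) ℂ :=
      AlgEquiv.ofAlgHom (two j k (R * X j - B * X k) (S * X j + A * X k))
        (two j k (A * X j + B * X k) (R * X k - S * X j))
        (by
          apply MvPolynomial.algHom_ext
          intro i
          rw [AlgHom.comp_apply, AlgHom.id_apply]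
          by_cases h1 : i = j
          · subst h1
            rw [tj, map_add, map_mul, map_mul, fixA, fixB, tj, tk]
            linear_combination (X i) * hrs'
          · by_cases h2 : i = k
            · subst h2
              rw [tk, map_sub, map_mul, map_mul, fixR, fixS, tj, tk]
              linear_combination (X i) * hrs'
            · rw [ti _ _ _ h1 h2, ti _ _ _ h1 h2])
        (by
          apply MvPolynomial.algHom_ext
          intro i
          rw [AlgHom.comp_apply, AlgHom.id_apply]
          by_cases h1 : i = j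
          · subst h1
            rw [tj, map_sub, map_mul, map_mul, fixR, fixB, tj, tk]
            linear_combination (X i) * hrs'
          · by_cases h2 : i = k
            · subst h2
              rw [tk, map_add, map_mul, map_mul, fixA, fixS, tj, tk]
              linear_combination (X i) * hrs'
            · rw [ti _ _ _ h1 h2, ti _ _ _ h1 h2])
    -- derivatives of `A` and `B` in the directions `j` and `k` vanish
    have hno : ∀ (h : MvPolynomial (Fin n) ℂ) (i : Fin n), IsWeightedHomogeneous w h 0 →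
        w i ≠ 0 → pderiv i h = 0 := fun h i hh hi =>
      pderiv_zero_of_lt (Nat.pos_of_ne_zero hi) hh
    have hgj : pderiv j (f - A * X j - B * X k) = 0 := by
      rw [map_sub, map_sub, Derivation.leibniz, Derivation.leibniz, hno A j hwj hj0,
        hno B j hwk hj0, pderiv_X_self, pderiv_X_of_ne hne.symm, ← hAdef]
      simp
    have hgk : pderiv k (f - A * X j - B * X k) = 0 := by
      rw [map_sub, map_sub, Derivation.leibniz, Derivation.leibniz, hno A k hwj hk0,
        hno B k hwk hk0, pderiv_X_self, pderiv_X_of_ne hne, ← hBdef]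
      simp
    have hvj := notMem_vars_of_pderiv _ j hgj
    have hvk := notMem_vars_of_pderiv _ k hgk
    apply coord_comp e
    have hef : e f = X j + (f - A * X j - B * X k) := by
      have h1 : e (f - A * X j - B * X k) = f - A * X j - B * X k := two_fix _ _ hvj hvk
      have h2 : e A = A := fixA _ _
      have h3 : e B = B := fixB _ _
      have h4 : e (X j) = R * X j - B * X k := tj _ _
      have h5 : e (X k) = S * X j + A * X k := tk _ _
      rw [map_sub, map_sub, map_mul, map_mul, h2, h3, h4, h5] at h1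
      linear_combination h1 + (X j) * hrs'
    rw [hef]
    apply coord_of_pderiv (j := j) one_ne_zero
    rw [map_add, hgj, pderiv_X_self, add_zero, C_1]
  · obtain ⟨i, hi, hi2⟩ := key hf hw 0
    have huniq : ∀ i', w i' = d → i' = i := by
      intro i' hi'
      by_contra hcon
      apply hj
      rcases hjk i hi with h1 | h1 <;> rcases hjk i' hi' with h2 | h2
      · exact absurd (h2.trans h1.symm) hcon
      · exact ⟨h1 ▸ hi, h2 ▸ hi', fun h => hcon (h2.trans (h.symm.trans h1.symm))⟩
      · exact ⟨h2 ▸ hi', h1 ▸ hi, fun h => hcon (h2.trans (h.trans h1.symm))⟩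
      · exact absurd (h2.trans h1.symm) hcon
    have h0 : ∀ p, eval p (pderiv i f) ≠ 0 := by
      intro p
      obtain ⟨i', h1, h2⟩ := key hf hw p
      rw [huniq i' h1] at h2
      exact h2
    obtain ⟨c, hc, hc2⟩ := const_of_no_zero h0
    exact coord_of_pderiv hc hc2

end Vale.Agent.P295
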