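import Vale.Agent.Lib.P295.Weighted

/-! P295: weighted homogeneous stable coordinates with at most one variable of weight zero. -/

namespace Vale.Agent.P295

open MvPolynomial

/-- a polynomial in the single variable `X t` -/
noncomputable def inj {n : ℕ} (t : Fin n) : Polynomial ℂ →ₐ[ℂ] MvPolynomial (Fin n) ℂ :=
  Polynomial.aeval (X t)

theorem two_inj {n : ℕ} {t j k : Fin n} (hj : t ≠ j) (hk : t ≠ k)
    (p q : MvPolynomial (Fin n) ℂ) (r : Polynomial ℂ) :
    two j k p q (inj t r) = inj t r := by
  have h : (two j k p q).comp (inj t) = inj t := by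
    apply Polynomial.algHom_ext
    simp [inj, two, hj, hk]
  exact DFunLike.congr_fun h r

theorem exists_aut {n : ℕ} {t j k : Fin n} (hj : t ≠ j) (hk : t ≠ k) (hne : j ≠ k)
    {A B R S : Polynomial ℂ} (hrs : R * A + S * B = 1) :
    ∃ e : MvPolynomial (Fin n) ℂ ≃ₐ[ℂ] MvPolynomial (Fin n) ℂ,
      (∀ r, e (inj t r) = inj t r) ∧ (∀ i, i ≠ j → i ≠ k → e (X i) = X i) ∧
      (∀ G : MvPolynomial (Fin n) ℂ, j ∉ G.vars → k ∉ G.vars → e G = G) ∧
      e (inj t A * X j + inj t B * X k) = X j := by
  have hrs' : inj t R * inj t A + inj t S * inj t B = 1 := by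
    have := congrArg (inj t) hrs
    rwa [map_add, map_mul, map_mul, map_one] at this
  have fix : ∀ p q r, two j k p q (inj t r) = inj t r := fun p q r => two_inj hj hk p q r
  have tj : ∀ p q, two j k p q (X j) = p := fun p q => by simp [two]
  have tk : ∀ p q, two j k p q (X k) = q := fun p q => by simp [two, Ne.symm hne]
  have ti : ∀ p q i, i ≠ j → i ≠ k → two j k p q (X i) = X i := fun p q i h1 h2 => by
    simp [two, h1, h2]
  let e : MvPolynomial (Fin n) ℂ ≃ₐ[ℂ] MvPolynomial (Fin n) ℂ :=
    AlgEquiv.ofAlgHom
      (two j k (inj t R * X j - inj t B * X k) (inj t S * X j + inj t A * X k))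
      (two j k (inj t A * X j + inj t B * X k) (inj t R * X k - inj t S * X j))
      (by
        apply MvPolynomial.algHom_ext
        intro i
        rw [AlgHom.comp_apply, AlgHom.id_apply]
        by_cases h1 : i = j
        · subst h1
          rw [tj, map_add, map_mul, map_mul, fix, fix, tj, tk]
          linear_combination (X i) * hrs'
        · by_cases h2 : i = k
          · subst h2
            rw [tk, map_sub, map_mul, map_mul, fix, fix, tj, tk]
            linear_combination (X i) * hrs'
          · rw [ti _ _ _ h1 h2, ti _ _ _ h1 h2])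
      (by
        apply MvPolynomial.algHom_ext
        intro i
        rw [AlgHom.comp_apply, AlgHom.id_apply]
        by_cases h1 : i = j
        · subst h1
          rw [tj, map_sub, map_mul, map_mul, fix, fix, tj, tk]
          linear_combination (X i) * hrs'
        · by_cases h2 : i = k
          · subst h2
            rw [tk, map_add, map_mul, map_mul, fix, fix, tj, tk]
            linear_combination (X i) * hrs'
          · rw [ti _ _ _ h1 h2, ti _ _ _ h1 h2])
  have h2 : ∀ r, e (inj t r) = inj t r := fun r => fix _ _ r
  have h4 : e (X j) = inj t R * X j - inj t B * X k := tj _ _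
  have h5 : e (X k) = inj t S * X j + inj t A * X k := tk _ _
  refine ⟨e, h2, fun i h1 h3 => ti _ _ i h1 h3, fun G h1 h3 => two_fix _ _ h1 h3, ?_⟩
  rw [map_add, map_mul, map_mul, h2, h2, h4, h5]
  linear_combination (X j) * hrs'

theorem gcd_split (p q : Polynomial ℂ) :
    ∃ g A B R S : Polynomial ℂ, p = g * A ∧ q = g * B ∧ R * A + S * B = 1 := by
  by_cases h : p = 0 ∧ q = 0
  · exact ⟨0, 1, 0, 1, 0, by simp [h.1], by simp [h.2], by simp⟩
  · have hg : EuclideanDomain.gcd p q ≠ 0 := by
      intro h0
      exact h (EuclideanDomain.gcd_eq_zero_iff.1 h0)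
    obtain ⟨A, hA⟩ := EuclideanDomain.gcd_dvd_left p q
    obtain ⟨B, hB⟩ := EuclideanDomain.gcd_dvd_right p q
    refine ⟨EuclideanDomain.gcd p q, A, B, EuclideanDomain.gcdA p q, EuclideanDomain.gcdB p q,
      hA, hB, ?_⟩
    apply mul_left_cancel₀ hg
    have h1 := EuclideanDomain.gcd_eq_gcd_ab p q
    calc EuclideanDomain.gcd p q *
          (EuclideanDomain.gcdA p q * A + EuclideanDomain.gcdB p q * B)
        = (EuclideanDomain.gcd p q * A) * EuclideanDomain.gcdA p q +
          (EuclideanDomain.gcd p q * B) * EuclideanDomain.gcdB p q := by ring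
      _ = p * EuclideanDomain.gcdA p q + q * EuclideanDomain.gcdB p q := by rw [← hA, ← hB]
      _ = EuclideanDomain.gcd p q * 1 := by rw [← h1, mul_one]

theorem row {n : ℕ} (t : Fin n) (G : MvPolynomial (Fin n) ℂ) :
    ∀ (m : ℕ) (J : Finset (Fin n)) (q b : Fin n → Polynomial ℂ), J.card = m → t ∉ J →
      (∀ i ∈ J, i ∉ G.vars) → ∑ i ∈ J, b i * q i = 1 →
      IsCoordinate (∑ i ∈ J, inj t (q i) * X i + G) := by
  intro m
  induction m with
  | zero =>
    intro J q b hJ _ _ h1
    rw [Finset.card_eq_zero] at hJ
    subst hJ
    simp at h1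
  | succ m ih =>
    intro J q b hJ ht hG h1
    obtain ⟨j, hj⟩ : J.Nonempty := Finset.card_pos.1 (by omega)
    by_cases hm : J = {j}
    · subst hm
      rw [Finset.sum_singleton] at h1 ⊢
      have hu : IsUnit (q j) := IsUnit.of_mul_eq_one (b j) (by rw [mul_comm]; exact h1)
      obtain ⟨c, hc, hc2⟩ := Polynomial.isUnit_iff.1 hu
      have h2 : inj t (q j) = C c := by
        rw [← hc2, inj, Polynomial.aeval_C]
        rfl
      apply coord_of_pderiv (j := j) hc.ne_zero
      rw [h2, map_add, pderiv_C_mul, pderiv_X_self, mul_one,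
        pderiv_eq_zero_of_notMem_vars (hG j hj), add_zero]
    · obtain ⟨k, hk, hkj⟩ : ∃ k ∈ J, k ≠ j := by
        by_contra hcon
        push Not at hcon
        apply hm
        ext x
        rw [Finset.mem_singleton]
        exact ⟨fun hx => hcon x hx, fun hx => hx ▸ hj⟩
      obtain ⟨g, A, B, R, S, hA, hB, hRS⟩ := gcd_split (q j) (q k)
      have htj : t ≠ j := fun h => ht (h ▸ hj)
      have htk : t ≠ k := fun h => ht (h ▸ hk)
      obtain ⟨e, e1, e2, e3, e4⟩ := exists_aut htj htk hkj.symm hRS
      apply coord_comp e
      have hjk : j ∈ J.erase k := Finset.mem_erase.2 ⟨hkj.symm, hj⟩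
      have key1 : e (∑ i ∈ J, inj t (q i) * X i + G) =
          ∑ i ∈ J.erase k, inj t (Function.update q j g i) * X i + G := by
        rw [map_add, e3 G (hG j hj) (hG k hk), ← Finset.add_sum_erase J _ hk,
          ← Finset.add_sum_erase (J.erase k) _ hjk, ← Finset.add_sum_erase (J.erase k) _ hjk]
        rw [Function.update_self, map_add, map_add, map_sum]
        have h5 : e (inj t (q k) * X k) + e (inj t (q j) * X j) = inj t g * X j := by
          rw [← map_add, hA, hB, map_mul, map_mul]
          have : inj t g * inj t B * X k + inj t g * inj t A * X j =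
              inj t g * (inj t A * X j + inj t B * X k) := by ring
          rw [this, map_mul, e1, e4]
        have h6 : ∑ x ∈ (J.erase k).erase j, e (inj t (q x) * X x) =
            ∑ x ∈ (J.erase k).erase j, inj t (Function.update q j g x) * X x := by
          apply Finset.sum_congr rfl
          intro x hx
          rw [Finset.mem_erase, Finset.mem_erase] at hx
          rw [map_mul, e1, e2 x hx.1 hx.2.1, Function.update_of_ne hx.1]
        rw [h6, ← h5]
        ring
      rw [key1]
      apply ih (J.erase k) (Function.update q j g) (Function.update b j (b j * A + b k * B))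
      · rw [Finset.card_erase_of_mem hk, hJ]
        rfl
      · exact fun h => ht (Finset.mem_of_mem_erase h)
      · exact fun i hi => hG i (Finset.mem_of_mem_erase hi)
      · rw [← Finset.add_sum_erase J _ hk, ← Finset.add_sum_erase (J.erase k) _ hjk] at h1
        rw [← Finset.add_sum_erase (J.erase k) _ hjk, Function.update_self, Function.update_self,
          ← h1, hA, hB]
        have h6 : ∑ x ∈ (J.erase k).erase j,
            Function.update b j (b j * A + b k * B) x * Function.update q j g x =
            ∑ x ∈ (J.erase k).erase j, b x * q x := by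
          apply Finset.sum_congr rfl
          intro x hx
          rw [Finset.mem_erase] at hx
          rw [Function.update_of_ne hx.1, Function.update_of_ne hx.1]
        rw [h6]
        ring

end Vale.Agent.P295
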