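import Vale.Agent.Lib.P295.WeightedB

/-! P295: weighted homogeneous stable coordinates with at most one variable of weight zero. -/

namespace Vale.Agent.P295

open MvPolynomial

/-- left inverse of `inj t` -/
noncomputable def prj {n : ℕ} (t : Fin n) : MvPolynomial (Fin n) ℂ →ₐ[ℂ] Polynomial ℂ :=
  aeval fun i => if i = t then Polynomial.X else 0

theorem inj_prj {n : ℕ} {w : Fin n → ℕ} {t : Fin n} (ht : ∀ i, w i = 0 → i = t)
    {h : MvPolynomial (Fin n) ℂ} (hh : IsWeightedHomogeneous w h 0) : inj t (prj t h) = h := by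
  have h2 : (inj t).comp (prj t) =
      aeval (fun i => if i = t then (X t : MvPolynomial (Fin n) ℂ) else 0) := by
    apply MvPolynomial.algHom_ext
    intro i
    by_cases hi : i = t <;> simp [inj, prj, hi]
  have h1 : ((inj t).comp (prj t)) h = aeval X h := by
    rw [h2]
    apply MvPolynomial.eval₂Hom_congr' rfl _ rfl
    intro i hi _
    rw [mem_vars_iff_mem_support] at hi
    obtain ⟨m, hm, hi⟩ := hi
    have h1 : Finsupp.weight w m = 0 := hh (mem_support_iff.1 hm)
    rw [Finsupp.weight_apply, Finsupp.sum] at h1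
    have h2 := (Finset.sum_eq_zero_iff.1 h1) i hi
    rw [smul_eq_mul] at h2
    have hmi : m i ≠ 0 := Finsupp.mem_support_iff.1 hi
    have hw : w i = 0 := (mul_eq_zero.1 h2).resolve_left hmi
    have := ht i hw
    subst this
    simp
  rw [AlgHom.comp_apply] at h1
  rw [h1]
  simp

/-- finitely many polynomials without common zero generate the unit ideal -/
theorem bezout_fin {n : ℕ} (v : Fin n → MvPolynomial (Fin n) ℂ)
    (h0 : ∀ x, ∃ i, eval x (v i) ≠ 0) : ∃ c : Fin n → MvPolynomial (Fin n) ℂ,
      ∑ i, c i * v i = 1 := by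
  have h1 := vanishingIdeal_zeroLocus_eq_radical (k := ℂ) (K := ℂ) (Ideal.span (Set.range v))
  have h2 : zeroLocus ℂ (Ideal.span (Set.range v)) = ∅ := by
    rw [zeroLocus_span, Set.eq_empty_iff_forall_notMem]
    intro x hx
    obtain ⟨i, hi⟩ := h0 x
    have hp := hx (v i) ⟨i, rfl⟩
    exact hi (by simpa [coe_aeval_eq_eval] using hp)
  rw [h2, vanishingIdeal_empty] at h1
  have h3 : Ideal.span (Set.range v) = ⊤ := Ideal.radical_eq_top.1 h1.symm
  have h4 : (1 : MvPolynomial (Fin n) ℂ) ∈ Ideal.span (Set.range v) := by rw [h3]; trivial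
  exact Ideal.mem_span_range_iff_exists_fun.1 h4

theorem main_one {n : ℕ} {f : MvPolynomial (Fin n) ℂ} (hf : IsStableCoordinate f) {w : Fin n → ℕ}
    {d : ℕ} {a : ℂ} (hd : 0 < d) (hw : IsWeightedHomogeneous w (f - C a) d)
    (huniq : ∀ i j, w i = 0 → w j = 0 → i = j) : IsCoordinate f := by
  classical
  by_cases hpos : ∀ i, 0 < w i
  · exact main_pos hf hw hpos
  push Not at hpos
  obtain ⟨t, ht⟩ := hpos
  have ht0 : w t = 0 := by omega
  have htu : ∀ i, w i = 0 → i = t := fun i hi => huniq i t hi ht0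
  have hpd : ∀ i, pderiv i f = pderiv i (f - C a) := fun i => by
    rw [map_sub, pderiv_C, sub_zero]
  have hw0 : ∀ i, w i = d → IsWeightedHomogeneous w (pderiv i f) 0 := fun i hi => by
    rw [hpd]; exact IsWeightedHomogeneous.pderiv hw (by omega)
  obtain ⟨c, hc⟩ := bezout_fin (fun i => if w i = d then pderiv i f else 0) (by
    intro x
    obtain ⟨i, hi, hi2⟩ := key hf hw x
    exact ⟨i, by simpa [hi] using hi2⟩)
  let J : Finset (Fin n) := Finset.univ.filter fun i => w i = d
  have hc' : ∑ i ∈ J, c i * pderiv i f = 1 := by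
    rw [Finset.sum_filter, ← hc]
    apply Finset.sum_congr rfl
    intro i _
    split_ifs <;> simp
  let q : Fin n → Polynomial ℂ := fun i => prj t (pderiv i f)
  have hq : ∀ i ∈ J, inj t (q i) = pderiv i f := fun i hi =>
    inj_prj htu (hw0 i (Finset.mem_filter.1 hi).2)
  have h1 : ∑ i ∈ J, prj t (c i) * q i = 1 := by
    have := congrArg (prj t) hc'
    rw [map_sum, map_one] at this
    rw [← this]
    exact Finset.sum_congr rfl fun i _ => (map_mul _ _ _).symm
  let G : MvPolynomial (Fin n) ℂ := f - ∑ i ∈ J, pderiv i f * X i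
  have hG : ∀ j ∈ J, j ∉ G.vars := by
    intro j hj
    apply notMem_vars_of_pderiv
    have hjd : w j = d := (Finset.mem_filter.1 hj).2
    have hcross : ∀ i ∈ J, pderiv j (pderiv i f * X i) = if i = j then pderiv j f else 0 := by
      intro i hi
      have hid : w i = d := (Finset.mem_filter.1 hi).2
      rw [Derivation.leibniz, pderiv_zero_of_lt (by omega) (hw0 i hid), smul_zero, add_zero]
      split_ifs with h
      · subst h
        rw [pderiv_X_self, smul_eq_mul, mul_one]
      · rw [pderiv_X_of_ne h, smul_zero]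
    change pderiv j (f - ∑ i ∈ J, pderiv i f * X i) = 0
    rw [map_sub, map_sum, Finset.sum_congr rfl hcross, Finset.sum_ite_eq' J j, if_pos hj, sub_self]
  have htJ : t ∉ J := by
    intro h
    have := (Finset.mem_filter.1 h).2
    omega
  have h2 := row t G J.card J q (fun i => prj t (c i)) rfl htJ hG h1
  have h3 : ∑ i ∈ J, inj t (q i) * X i + G = f := by
    rw [Finset.sum_congr rfl fun i hi => by rw [hq i hi]]
    simp only [G]
    ring
  rwa [h3] at h2

end Vale.Agent.P295
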